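import Vale.Agent.P154.D7.K0.Data
import Vale.Agent.P154.ApxLemma

set_option maxRecDepth 100000

namespace Vale.Agent.P154.D7.K0

open PolyR Cert InT OutT

/-- The quotient polynomial for `j = 1`. -/
noncomputable def S1 (u : ℝ) : ℝ :=
  (339 / 16777216 : ℝ) * u ^ 0 + (-6553 / 16777216 : ℝ) * u ^ 1 + (-42905 / 16777216 : ℝ) * u ^ 2 + (125779 / 8388608 : ℝ) * u ^ 3 + (323417 / 8388608 : ℝ) * u ^ 4 + (-1449607 / 8388608 : ℝ) * u ^ 5 + (-1353847 / 16777216 : ℝ) * u ^ 6 + (1346547 / 2097152 : ℝ) * u ^ 7 + (-3954735 / 8388608 : ℝ) * u ^ 8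

/-- Certificate polynomial. -/
def lpu1 : List ITm := [⟨(-939758300781250000000000000000000000000),0,0⟩,⟨(-20958077801513671875000000000000000000000),1,0⟩,⟨(-94832607824226562500000000000000000000000),2,0⟩,⟨418246963520759190562500000000000000000000,3,0⟩,⟨808969931438087730411371250000000000000000,4,0⟩,⟨(-2727499559290395533920605323925000000000000),5,0⟩,⟨(-958073612999160323232645653147091750000000),6,0⟩,⟨5734369478228907769763447876702150517480000,7,0⟩,⟨(-3167133921576620286496580861245115489459907),8,0⟩]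

/-- Certificate tree. -/
def tpu1 : OutT := (A (A (A (A (O l) (O l)) (O l)) (A (A (O l) (A (O l) (O l))) (A (A (O l) (A (O l) (O l))) (A (A (A (O l) (O l)) (A (O l) (O l))) (A (A (O l) (A (O l) (O l))) (A (A (O l) (O l)) (A (O l) (O l)))))))) (A (A (A (A (A (A (A (O l) (O l)) (A (O l) (O l))) (A (A (O l) (O l)) (A (O l) (O l)))) (A (A (O l) (O l)) (A (O l) (O l)))) (A (A (A (O l) (O l)) (A (O l) (O l))) (A (O l) (O l)))) (A (A (A (O l) (O l)) (A (O l) (O l))) (A (A (O l) (O l)) (A (O l) (O l))))) (A (A (A (A (O l) (O l)) (A (O l) (O l))) (A (A (A (O l) (O l)) (A (O l) (O l))) (A (A (O l) (O l)) (A (O l) (O l))))) (A (A (A (A (O l) (A (O l) (O l))) (A (A (O l) (O l)) (A (O l) (O l)))) (A (A (A (O l) (A (O l) (O l))) (A (A (O l) (O l)) (A (O l) (O l)))) (A (A (A (O l) (O l)) (A (A (O l) (O l)) (A (O l) (O l)))) (A (A (A (O l) (O l)) (A (O l) (O l))) (A (A (O l) (O l)) (A (O l) (O l))))))) (A (A (A (A (A (A (O l) (O l)) (A (O l) (O l))) (A (A (O l) (O l)) (A (O l) (O l)))) (A (A (A (O l) (O l)) (O l)) (A (O l)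 (O l)))) (A (A (A (O l) (O l)) (A (O l) (O l))) (A (O l) (O l)))) (A (A (A (O l) (O l)) (A (O l) (O l))) (A (O l) (O l))))))))

theorem hpu1 (x : ℝ) (h0 : 0 ≤ x) (h1 : x ≤ 1) : evalIL lpu1 x 0 ≤ 0 :=
  uni_le 8 65536 lpu1 (by norm_num) (by norm_num) (by decide +kernel)
    (chkOut_sound (uniPb 8 65536 lpu1) tpu1 0 32768 0 32768 (by decide +kernel)) x h0 h1

/-- Certificate polynomial. -/
def lpl1 : List ITm := [⟨(-3588195800781250000000000000000000000000),0,0⟩,⟨17552060167236328125000000000000000000000,1,0⟩,⟨94832607824226562500000000000000000000000,2,0⟩,⟨(-418246963520759190562500000000000000000000),3,0⟩,⟨(-808969931438087730411371250000000000000000),4,0⟩,⟨2727499559290395533920605323925000000000000,5,0⟩,⟨958073612999160323232645653147091750000000,6,0⟩,⟨(-5734369478228907769763447876702150517480000),7,0⟩,⟨3167133921576620286496580861245115489459907,8,0⟩]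

/-- Certificate tree. -/
def tpl1 : OutT := (A (A (A (A (O l) (O l)) (A (A (O l) (A (O l) (O l))) (A (A (A (O l) (O l)) (A (O l) (O l))) (A (O l) (O l))))) (A (A (A (A (O l) (O l)) (O l)) (A (O l) (O l))) (A (A (O l) (O l)) (A (O l) (O l))))) (A (A (A (A (O l) (O l)) (A (A (O l) (O l)) (A (O l) (O l)))) (A (A (A (O l) (O l)) (A (A (O l) (O l)) (A (O l) (O l)))) (A (A (A (O l) (O l)) (A (O l) (A (O l) (O l)))) (A (A (A (O l) (O l)) (A (O l) (O l))) (A (A (A (O l) (O l)) (A (O l) (O l))) (A (A (O l) (O l)) (A (O l) (O l)))))))) (A (A (A (A (A (A (A (O l) (O l)) (A (O l) (O l))) (A (A (O l) (O l)) (A (O l) (O l)))) (A (A (A (O l) (O l)) (A (O l) (O l))) (A (A (O l) (O l)) (A (O l) (O l))))) (A (A (A (A (O l) (O l)) (O l)) (A (O l) (O l))) (A (A (O l) (O l)) (A (O l) (O l))))) (A (A (A (A (O l) (O l)) (A (O l) (O l))) (A (O l) (O l))) (A (A (O l) (O l)) (A (O l) (O l))))) (A (A (A (A (O l) (O l)) (A (O l) (O l))) (A (A (O l) (O l)) (A (O l) (O l)))) (A (A (A (O l) (O l)) (A (O l) (O l))) (A (A (O l) (O l)) (A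 (A (O l) (O l)) (A (O l) (A (O l) (A (O l) (O l)))))))))))

theorem hpl1 (x : ℝ) (h0 : 0 ≤ x) (h1 : x ≤ 1) : evalIL lpl1 x 0 ≤ 0 :=
  uni_le 8 65536 lpl1 (by norm_num) (by norm_num) (by decide +kernel)
    (chkOut_sound (uniPb 8 65536 lpl1) tpl1 0 32768 0 32768 (by decide +kernel)) x h0 h1

/-- Certificate polynomial. -/
def lnu1 : List ITm := [⟨(-240578125000000000000000000000000000000000),0,0⟩,⟨2682633958593750000000000000000000000000000,1,0⟩,⟨(-6069286900750500000000000000000000000000000),2,0⟩,⟨(-13383902832664294098000000000000000000000000),3,0⟩,⟨12943518903009403686581940000000000000000000,4,0⟩,⟨21819996474323164271364842591400000000000000,5,0⟩,⟨(-3832294451996641292930582612588367000000000),6,0⟩,⟨(-11468738956457815539526895753404301034960000),7,0⟩,⟨(-3167133921576620286496580861245115489459907),8,0⟩]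

/-- Certificate tree. -/
def tnu1 : OutT := (A (A (A (A (O l) (O l)) (A (A (O l) (O l)) (A (O l) (O l)))) (A (A (O l) (O l)) (O l))) (A (A (O l) (A (O l) (O l))) (A (A (A (O l) (O l)) (A (O l) (A (O l) (O l)))) (A (A (A (A (O l) (O l)) (A (O l) (A (O l) (O l)))) (A (A (A (O l) (O l)) (O l)) (A (O l) (O l)))) (A (A (O l) (O l)) (O l))))))

theorem hnu1 (x : ℝ) (h0 : 0 ≤ x) (h1 : x ≤ 1) : evalIL lnu1 x 0 ≤ 0 :=
  uni_le 8 65536 lnu1 (by norm_num) (by norm_num) (by decide +kernel)
    (chkOut_sound (uniPb 8 65536 lnu1) tnu1 0 32768 0 32768 (by decide +kernel)) x h0 h1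

/-- Certificate polynomial. -/
def lnl1 : List ITm := [⟨(-918578125000000000000000000000000000000000),0,0⟩,⟨(-2246663701406250000000000000000000000000000),1,0⟩,⟨6069286900750500000000000000000000000000000,2,0⟩,⟨13383902832664294098000000000000000000000000,3,0⟩,⟨(-12943518903009403686581940000000000000000000),4,0⟩,⟨(-21819996474323164271364842591400000000000000),5,0⟩,⟨3832294451996641292930582612588367000000000,6,0⟩,⟨11468738956457815539526895753404301034960000,7,0⟩,⟨3167133921576620286496580861245115489459907,8,0⟩]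

/-- Certificate tree. -/
def tnl1 : OutT := (A (A (O l) (A (O l) (A (O l) (O l)))) (A (A (A (A (O l) (O l)) (A (A (O l) (O l)) (A (A (O l) (O l)) (A (O l) (O l))))) (A (A (A (O l) (O l)) (A (O l) (O l))) (A (O l) (O l)))) (A (A (A (O l) (O l)) (O l)) (A (O l) (A (O l) (A (O l) (A (O l) (A (O l) (O l)))))))))

theorem hnl1 (x : ℝ) (h0 : 0 ≤ x) (h1 : x ≤ 1) : evalIL lnl1 x 0 ≤ 0 :=
  uni_le 8 65536 lnl1 (by norm_num) (by norm_num) (by decide +kernel)
    (chkOut_sound (uniPb 8 65536 lnl1) tnl1 0 32768 0 32768 (by decide +kernel)) x h0 h1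

theorem apx1 (u : ℝ) (h0 : -(37611 / 100000 : ℝ) ≤ u) (h1 : u ≤ 2 * (37611 / 100000 : ℝ)) :
    |((1 + u)⁻¹) ^ 1 - evalZ Ax.p1 (3 * u) / Ax.D1| ≤ Ax.e1 * |u| ^ Ax.m1 := by
  have hu : 0 < 1 + u := by norm_num at h0 ⊢; linarith
  refine apx_of_S 1 2 _ (S1 u) _ u hu ?_ ?_ ?_
  · simp only [Ax, evalZ_cons, evalZ_nil, S1]
    push_cast
    ring
  · rcases le_total 0 u with hs | hs
    · have hx := hpu1 (u / (2 * (37611 / 100000 : ℝ))) (by positivity) (by rw [div_le_one (by norm_num)]; exact h1)
      have e : evalIL lpu1 (u / (2 * (37611 / 100000 : ℝ))) 0 = 65536000000000000000000000000000000000000000 * (S1 u - Ax.e1 * (1 + u) ^ 1) := by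
        simp only [lpu1, evalIL, List.map_cons, List.map_nil, List.sum_cons, List.sum_nil, S1, Ax]
        push_cast
        ring
      rw [e] at hx
      have := cmul_nonpos (by norm_num) hx
      simp only [Ax] at this ⊢
      linarith
    · have hx := hnu1 (-u / (37611 / 100000 : ℝ)) (by apply div_nonneg <;> [linarith; norm_num]) (by rw [div_le_one (by norm_num)]; linarith)
      have e : evalIL lnu1 (-u / (37611 / 100000 : ℝ)) 0 = 16777216000000000000000000000000000000000000000 * (S1 u - Ax.e1 * (1 + u) ^ 1) := by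
        simp only [lnu1, evalIL, List.map_cons, List.map_nil, List.sum_cons, List.sum_nil, S1, Ax]
        push_cast
        ring
      rw [e] at hx
      have := cmul_nonpos (by norm_num) hx
      simp only [Ax] at this ⊢
      linarith
  · rcases le_total 0 u with hs | hs
    · have hx := hpl1 (u / (2 * (37611 / 100000 : ℝ))) (by positivity) (by rw [div_le_one (by norm_num)]; exact h1)
      have e : evalIL lpl1 (u / (2 * (37611 / 100000 : ℝ))) 0 = 65536000000000000000000000000000000000000000 * (-S1 u - Ax.e1 * (1 + u) ^ 1) := by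
        simp only [lpl1, evalIL, List.map_cons, List.map_nil, List.sum_cons, List.sum_nil, S1, Ax]
        push_cast
        ring
      rw [e] at hx
      have := cmul_nonpos (by norm_num) hx
      simp only [Ax] at this ⊢
      linarith
    · have hx := hnl1 (-u / (37611 / 100000 : ℝ)) (by apply div_nonneg <;> [linarith; norm_num]) (by rw [div_le_one (by norm_num)]; linarith)
      have e : evalIL lnl1 (-u / (37611 / 100000 : ℝ)) 0 = 16777216000000000000000000000000000000000000000 * (-S1 u - Ax.e1 * (1 + u) ^ 1) := by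
        simp only [lnl1, evalIL, List.map_cons, List.map_nil, List.sum_cons, List.sum_nil, S1, Ax]
        push_cast
        ring
      rw [e] at hx
      have := cmul_nonpos (by norm_num) hx
      simp only [Ax] at this ⊢
      linarith

/-- The quotient polynomial for `j = 2`. -/
noncomputable def S2 (u : ℝ) : ℝ :=
  (1723 / 8388608 : ℝ) * u ^ 0 + (-17637 / 4194304 : ℝ) * u ^ 1 + (-513761 / 16777216 : ℝ) * u ^ 2 + (1196821 / 8388608 : ℝ) * u ^ 3 + (4641883 / 8388608 : ℝ) * u ^ 4 + (-12829627 / 8388608 : ℝ) * u ^ 5 + (-42274253 / 16777216 : ℝ) * u ^ 6 + (52200731 / 8388608 : ℝ) * u ^ 7 + (9691621 / 8388608 : ℝ) * u ^ 8 + (-39202823 / 8388608 : ℝ) * u ^ 9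

/-- Certificate polynomial. -/
def lpu2 : List ITm := [⟨(-2786972045898437500000000000000000000000000000),0,0⟩,⟨(-61079469724731445312500000000000000000000000000),1,0⟩,⟨(-287371678836030853271484375000000000000000000000),2,0⟩,⟨994933075330298649234375000000000000000000000000,3,0⟩,⟨2902710565812577097296313437500000000000000000000,4,0⟩,⟨(-6034877382000804249473687337356250000000000000000),5,0⟩,⟨(-7479029445083268695040621318452233312500000000000),6,0⟩,⟨13893790867847426181245051056714420583002500000000,7,0⟩,⟨1940374110032930542605021543987223380648445050000,8,0⟩,⟨(-5904066860336893172493673618495671253324152130893),9,0⟩]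

/-- Certificate tree. -/
def tpu2 : OutT := (A (A (A (A (O l) (O l)) (O l)) (A (A (O l) (A (O l) (O l))) (A (A (O l) (A (O l) (O l))) (A (A (O l) (A (O l) (O l))) (A (A (O l) (A (O l) (O l))) (A (A (O l) (O l)) (A (O l) (O l)))))))) (A (A (A (A (A (A (A (O l) (O l)) (A (O l) (O l))) (A (A (O l) (O l)) (O l))) (A (A (O l) (O l)) (A (O l) (O l)))) (A (A (O l) (O l)) (A (O l) (O l)))) (A (A (A (O l) (O l)) (A (O l) (O l))) (A (A (O l) (O l)) (A (O l) (O l))))) (A (A (A (A (O l) (O l)) (A (O l) (O l))) (A (A (O l) (O l)) (A (A (O l) (O l)) (A (O l) (O l))))) (A (A (A (A (O l) (O l)) (A (A (O l) (O l)) (A (O l) (O l)))) (A (A (A (O l) (O l)) (A (O l) (A (O l) (O l)))) (A (A (A (O l) (O l)) (A (O l) (O l))) (A (A (A (O l) (O l)) (A (O l) (O l))) (A (A (O l) (O l)) (A (O l) (O l))))))) (A (A (A (A (A (A (O l) (O l)) (A (O l) (O l))) (A (A (O l) (O l)) (O l))) (A (A (O l) (O l)) (A (O l) (O l)))) (A (A (A (O l) (O l)) (O l)) (A (O l) (O l)))) (A (A (A (O l) (O l)) (O l)) (A (O l) (O l))))))))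

theorem hpu2 (x : ℝ) (h0 : 0 ≤ x) (h1 : x ≤ 1) : evalIL lpu2 x 0 ≤ 0 :=
  uni_le 9 65536 lpu2 (by norm_num) (by norm_num) (by decide +kernel)
    (chkOut_sound (uniPb 9 65536 lpu2) tpu2 0 32768 0 32768 (by decide +kernel)) x h0 h1

/-- Certificate polynomial. -/
def lpl2 : List ITm := [⟨(-9517440795898437500000000000000000000000000000),0,0⟩,⟨42568218869018554687500000000000000000000000000,1,0⟩,⟨280409412276688677978515625000000000000000000000,2,0⟩,⟨(-994933075330298649234375000000000000000000000000),3,0⟩,⟨(-2902710565812577097296313437500000000000000000000),4,0⟩,⟨6034877382000804249473687337356250000000000000000,5,0⟩,⟨7479029445083268695040621318452233312500000000000,6,0⟩,⟨(-13893790867847426181245051056714420583002500000000),7,0⟩,⟨(-1940374110032930542605021543987223380648445050000),8,0⟩,⟨5904066860336893172493673618495671253324152130893,9,0⟩]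

/-- Certificate tree. -/
def tpl2 : OutT := (A (A (A (A (O l) (O l)) (A (A (O l) (A (O l) (O l))) (A (A (O l) (A (O l) (O l))) (A (O l) (O l))))) (A (A (A (O l) (O l)) (A (O l) (O l))) (A (A (O l) (O l)) (A (O l) (O l))))) (A (A (A (A (O l) (O l)) (A (O l) (A (O l) (O l)))) (A (A (A (O l) (O l)) (A (O l) (A (O l) (O l)))) (A (A (A (O l) (O l)) (A (O l) (A (O l) (O l)))) (A (A (A (O l) (O l)) (A (O l) (O l))) (A (A (O l) (A (O l) (O l))) (A (A (O l) (O l)) (A (O l) (O l)))))))) (A (A (A (A (A (A (A (O l) (O l)) (A (O l) (O l))) (A (A (O l) (O l)) (A (O l) (O l)))) (A (A (A (O l) (O l)) (A (O l) (O l))) (A (A (O l) (O l)) (O l)))) (A (A (A (O l) (O l)) (A (O l) (O l))) (A (A (O l) (O l)) (A (O l) (O l))))) (A (A (A (O l) (O l)) (A (O l) (O l))) (A (A (O l) (O l)) (A (O l) (O l))))) (A (A (A (A (O l) (O l)) (A (O l) (O l))) (A (O l) (O l))) (A (A (A (O l) (O l)) (A (O l) (O l))) (A (A (O l) (O l)) (A (A (O l) (O l)) (A (O l) (A (O l) (A (O l) (O l)))))))))))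

theorem hpl2 (x : ℝ) (h0 : 0 ≤ x) (h1 : x ≤ 1) : evalIL lpl2 x 0 ≤ 0 :=
  uni_le 9 65536 lpl2 (by norm_num) (by norm_num) (by decide +kernel)
    (chkOut_sound (uniPb 9 65536 lpl2) tpl2 0 32768 0 32768 (by decide +kernel)) x h0 h1

/-- Certificate polynomial. -/
def lnu2 : List ITm := [⟨(-1426929687500000000000000000000000000000000000000),0,0⟩,⟨15636344249531250000000000000000000000000000000000,1,0⟩,⟨(-36783574891011949218750000000000000000000000000000),2,0⟩,⟨(-63675716821139113551000000000000000000000000000000),3,0⟩,⟨92886738106002467113482030000000000000000000000000,4,0⟩,⟨96558038112012867991578997397700000000000000000000,5,0⟩,⟨(-59832235560666149560324970547617866500000000000000),6,0⟩,⟨(-55575163471389704724980204226857682332010000000000),7,0⟩,⟨3880748220065861085210043087974446761296890100000,8,0⟩,⟨5904066860336893172493673618495671253324152130893,9,0⟩]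

/-- Certificate tree. -/
def tnu2 : OutT := (A (A (A (A (O l) (O l)) (A (A (O l) (O l)) (A (O l) (O l)))) (A (A (O l) (O l)) (O l))) (A (A (O l) (A (O l) (O l))) (A (A (A (O l) (O l)) (A (A (O l) (O l)) (A (O l) (O l)))) (A (A (A (A (O l) (O l)) (A (A (O l) (O l)) (A (O l) (O l)))) (A (A (A (O l) (O l)) (A (O l) (O l))) (A (O l) (O l)))) (A (A (O l) (O l)) (A (O l) (O l)))))))

theorem hnu2 (x : ℝ) (h0 : 0 ≤ x) (h1 : x ≤ 1) : evalIL lnu2 x 0 ≤ 0 :=
  uni_le 9 65536 lnu2 (by norm_num) (by norm_num) (by decide +kernel)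
    (chkOut_sound (uniPb 9 65536 lnu2) tnu2 0 32768 0 32768 (by decide +kernel)) x h0 h1

/-- Certificate polynomial. -/
def lnl2 : List ITm := [⟨(-4872929687500000000000000000000000000000000000000),0,0⟩,⟨(-10897464030468750000000000000000000000000000000000),1,0⟩,⟨35892404771416150781250000000000000000000000000000,2,0⟩,⟨63675716821139113551000000000000000000000000000000,3,0⟩,⟨(-92886738106002467113482030000000000000000000000000),4,0⟩,⟨(-96558038112012867991578997397700000000000000000000),5,0⟩,⟨59832235560666149560324970547617866500000000000000,6,0⟩,⟨55575163471389704724980204226857682332010000000000,7,0⟩,⟨(-3880748220065861085210043087974446761296890100000),8,0⟩,⟨(-5904066860336893172493673618495671253324152130893),9,0⟩]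

/-- Certificate tree. -/
def tnl2 : OutT := (A (A (O l) (A (O l) (A (O l) (O l)))) (A (A (A (A (O l) (O l)) (A (A (O l) (O l)) (A (A (O l) (O l)) (A (O l) (O l))))) (A (A (A (A (O l) (O l)) (O l)) (A (O l) (O l))) (A (O l) (O l)))) (A (A (A (O l) (O l)) (A (O l) (O l))) (A (A (O l) (O l)) (A (O l) (A (O l) (A (O l) (A (O l) (O l)))))))))

theorem hnl2 (x : ℝ) (h0 : 0 ≤ x) (h1 : x ≤ 1) : evalIL lnl2 x 0 ≤ 0 :=
  uni_le 9 65536 lnl2 (by norm_num) (by norm_num) (by decide +kernel)
    (chkOut_sound (uniPb 9 65536 lnl2) tnl2 0 32768 0 32768 (by decide +kernel)) x h0 h1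

theorem apx2 (u : ℝ) (h0 : -(37611 / 100000 : ℝ) ≤ u) (h1 : u ≤ 2 * (37611 / 100000 : ℝ)) :
    |((1 + u)⁻¹) ^ 2 - evalZ Ax.p2 (3 * u) / Ax.D2| ≤ Ax.e2 * |u| ^ Ax.m2 := by
  have hu : 0 < 1 + u := by norm_num at h0 ⊢; linarith
  refine apx_of_S 2 2 _ (S2 u) _ u hu ?_ ?_ ?_
  · simp only [Ax, evalZ_cons, evalZ_nil, S2]
    push_cast
    ring
  · rcases le_total 0 u with hs | hs
    · have hx := hpu2 (u / (2 * (37611 / 100000 : ℝ))) (by positivity) (by rw [div_le_one (by norm_num)]; exact h1)
      have e : evalIL lpu2 (u / (2 * (37611 / 100000 : ℝ))) 0 = 16384000000000000000000000000000000000000000000000 * (S2 u - Ax.e2 * (1 + u) ^ 2) := by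
        simp only [lpu2, evalIL, List.map_cons, List.map_nil, List.sum_cons, List.sum_nil, S2, Ax]
        push_cast
        ring
      rw [e] at hx
      have := cmul_nonpos (by norm_num) hx
      simp only [Ax] at this ⊢
      linarith
    · have hx := hnu2 (-u / (37611 / 100000 : ℝ)) (by apply div_nonneg <;> [linarith; norm_num]) (by rw [div_le_one (by norm_num)]; linarith)
      have e : evalIL lnu2 (-u / (37611 / 100000 : ℝ)) 0 = 8388608000000000000000000000000000000000000000000000 * (S2 u - Ax.e2 * (1 + u) ^ 2) := by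
        simp only [lnu2, evalIL, List.map_cons, List.map_nil, List.sum_cons, List.sum_nil, S2, Ax]
        push_cast
        ring
      rw [e] at hx
      have := cmul_nonpos (by norm_num) hx
      simp only [Ax] at this ⊢
      linarith
  · rcases le_total 0 u with hs | hs
    · have hx := hpl2 (u / (2 * (37611 / 100000 : ℝ))) (by positivity) (by rw [div_le_one (by norm_num)]; exact h1)
      have e : evalIL lpl2 (u / (2 * (37611 / 100000 : ℝ))) 0 = 16384000000000000000000000000000000000000000000000 * (-S2 u - Ax.e2 * (1 + u) ^ 2) := by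
        simp only [lpl2, evalIL, List.map_cons, List.map_nil, List.sum_cons, List.sum_nil, S2, Ax]
        push_cast
        ring
      rw [e] at hx
      have := cmul_nonpos (by norm_num) hx
      simp only [Ax] at this ⊢
      linarith
    · have hx := hnl2 (-u / (37611 / 100000 : ℝ)) (by apply div_nonneg <;> [linarith; norm_num]) (by rw [div_le_one (by norm_num)]; linarith)
      have e : evalIL lnl2 (-u / (37611 / 100000 : ℝ)) 0 = 8388608000000000000000000000000000000000000000000000 * (-S2 u - Ax.e2 * (1 + u) ^ 2) := by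
        simp only [lnl2, evalIL, List.map_cons, List.map_nil, List.sum_cons, List.sum_nil, S2, Ax]
        push_cast
        ring
      rw [e] at hx
      have := cmul_nonpos (by norm_num) hx
      simp only [Ax] at this ⊢
      linarith

/-- The quotient polynomial for `j = 3`. -/
noncomputable def S3 (u : ℝ) : ℝ :=
  (120747 / 16777216 : ℝ) * u ^ 0 + (680639 / 16777216 : ℝ) * u ^ 1 + (-9356911 / 16777216 : ℝ) * u ^ 2 + (-3881505 / 2097152 : ℝ) * u ^ 3 + (27847225 / 4194304 : ℝ) * u ^ 4 + (123680247 / 8388608 : ℝ) * u ^ 5 + (-441630471 / 16777216 : ℝ) * u ^ 6 + (-129461007 / 4194304 : ℝ) * u ^ 7 + (420695983 / 16777216 : ℝ) * u ^ 8 + (398850399 / 16777216 : ℝ) * u ^ 9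

/-- Certificate polynomial. -/
def lpu3 : List ITm := [⟨(-9528503417968750000000000000000000000000000000),0,0⟩,⟨446281281617431640625000000000000000000000000000,1,0⟩,⟨(-10757259984891384008789062500000000000000000000000),2,0⟩,⟨(-25918404432082432638754394531250000000000000000000),3,0⟩,⟨69654865696580583576326531250000000000000000000000,4,0⟩,⟨116354922122143196177652751694962500000000000000000,5,0⟩,⟨(-156263780531142328547371136611246603875000000000000),6,0⟩,⟨(-137829806007807186897987985920631111475970000000000),7,0⟩,⟨84228179538598741840187819889354183326244471150000,8,0⟩,⟨60068108436171729680525240432628340544791076748309,9,0⟩]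

/-- Certificate tree. -/
def tpu3 : OutT := (A (A (A (A (A (O l) (A (O l) (O l))) (A (O l) (O l))) (A (O l) (O l))) (A (A (O l) (O l)) (A (O l) (O l)))) (A (A (A (A (O l) (O l)) (A (O l) (A (O l) (O l)))) (A (A (A (A (O l) (O l)) (A (O l) (O l))) (A (A (O l) (A (O l) (O l))) (A (A (O l) (O l)) (A (O l) (O l))))) (A (A (A (A (O l) (O l)) (A (O l) (O l))) (A (O l) (O l))) (A (A (O l) (O l)) (A (O l) (O l)))))) (A (A (A (A (O l) (O l)) (A (O l) (O l))) (A (A (O l) (O l)) (O l))) (A (A (O l) (O l)) (A (A (O l) (O l)) (A (O l) (A (O l) (A (O l) (A (O l) (O l))))))))))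

theorem hpu3 (x : ℝ) (h0 : 0 ≤ x) (h1 : x ≤ 1) : evalIL lpu3 x 0 ≤ 0 :=
  uni_le 9 65536 lpu3 (by norm_num) (by norm_num) (by decide +kernel)
    (chkOut_sound (uniPb 9 65536 lpu3) tpu3 0 32768 0 32768 (by decide +kernel)) x h0 h1

/-- Certificate polynomial. -/
def lpl3 : List ITm := [⟨(-481196472167968750000000000000000000000000000000),0,0⟩,⟨(-1553680705023193359375000000000000000000000000000),1,0⟩,⟨9924251990617101928710937500000000000000000000000,2,0⟩,⟨25709536007598099149995605468750000000000000000000,3,0⟩,⟨(-69654865696580583576326531250000000000000000000000),4,0⟩,⟨(-116354922122143196177652751694962500000000000000000),5,0⟩,⟨156263780531142328547371136611246603875000000000000,6,0⟩,⟨137829806007807186897987985920631111475970000000000,7,0⟩,⟨(-84228179538598741840187819889354183326244471150000),8,0⟩,⟨(-60068108436171729680525240432628340544791076748309),9,0⟩]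

/-- Certificate tree. -/
def tpl3 : OutT := (A (A (A (O l) (A (O l) (O l))) (A (A (A (O l) (O l)) (A (A (O l) (O l)) (A (A (O l) (O l)) (A (O l) (O l))))) (A (A (A (A (O l) (O l)) (O l)) (A (O l) (O l))) (A (O l) (O l))))) (A (A (A (A (O l) (O l)) (A (O l) (O l))) (A (A (O l) (O l)) (A (O l) (O l)))) (A (A (A (O l) (O l)) (A (A (O l) (O l)) (A (O l) (A (O l) (O l))))) (A (A (A (A (O l) (O l)) (A (A (O l) (O l)) (A (O l) (O l)))) (A (A (A (O l) (A (O l) (O l))) (A (A (O l) (O l)) (A (O l) (O l)))) (A (A (O l) (O l)) (A (O l) (O l))))) (A (A (A (O l) (O l)) (A (O l) (O l))) (A (O l) (O l)))))))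

theorem hpl3 (x : ℝ) (h0 : 0 ≤ x) (h1 : x ≤ 1) : evalIL lpl3 x 0 ≤ 0 :=
  uni_le 9 65536 lpl3 (by norm_num) (by norm_num) (by decide +kernel)
    (chkOut_sound (uniPb 9 65536 lpl3) tpl3 0 32768 0 32768 (by decide +kernel)) x h0 h1

/-- Certificate polynomial. -/
def lnu3 : List ITm := [⟨(-4878593750000000000000000000000000000000000000000),0,0⟩,⟨(-114248008094062500000000000000000000000000000000000),1,0⟩,⟨(-1376929278066097153125000000000000000000000000000000),2,0⟩,⟨1658777883653275688880281250000000000000000000000000,3,0⟩,⟨2228955702290578674442449000000000000000000000000000,4,0⟩,⟨(-1861678753954291138842444027119400000000000000000000),5,0⟩,⟨(-1250110244249138628378969092889972831000000000000000),6,0⟩,⟨551319224031228747591951943682524445903880000000000,7,0⟩,⟨168456359077197483680375639778708366652488942300000,8,0⟩,⟨(-60068108436171729680525240432628340544791076748309),9,0⟩]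

/-- Certificate tree. -/
def tnu3 : OutT := (A (A (A (A (O l) (O l)) (O l)) (A (O l) (O l))) (A (A (O l) (A (O l) (O l))) (A (A (A (O l) (O l)) (A (A (O l) (O l)) (A (A (O l) (O l)) (A (O l) (O l))))) (A (A (A (A (A (O l) (O l)) (A (O l) (O l))) (A (O l) (O l))) (A (A (O l) (O l)) (O l))) (A (A (O l) (O l)) (O l))))))

theorem hnu3 (x : ℝ) (h0 : 0 ≤ x) (h1 : x ≤ 1) : evalIL lnu3 x 0 ≤ 0 :=
  uni_le 9 65536 lnu3 (by norm_num) (by norm_num) (by decide +kernel)
    (chkOut_sound (uniPb 9 65536 lnu3) tnu3 0 32768 0 32768 (by decide +kernel)) x h0 h1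

/-- Certificate polynomial. -/
def lnl3 : List ITm := [⟨(-246372593750000000000000000000000000000000000000000),0,0⟩,⟨397742260485937500000000000000000000000000000000000,1,0⟩,⟨1270304254798989046875000000000000000000000000000000,2,0⟩,⟨(-1645410304486278345599718750000000000000000000000000),3,0⟩,⟨(-2228955702290578674442449000000000000000000000000000),4,0⟩,⟨1861678753954291138842444027119400000000000000000000,5,0⟩,⟨1250110244249138628378969092889972831000000000000000,6,0⟩,⟨(-551319224031228747591951943682524445903880000000000),7,0⟩,⟨(-168456359077197483680375639778708366652488942300000),8,0⟩,⟨60068108436171729680525240432628340544791076748309,9,0⟩]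

/-- Certificate tree. -/
def tnl3 : OutT := (A (A (O l) (A (O l) (A (O l) (A (O l) (A (O l) (O l)))))) (A (A (A (A (A (O l) (O l)) (A (O l) (O l))) (A (A (O l) (O l)) (O l))) (A (A (O l) (O l)) (O l))) (A (A (O l) (O l)) (A (O l) (A (O l) (A (O l) (A (O l) (A (O l) (O l)))))))))

theorem hnl3 (x : ℝ) (h0 : 0 ≤ x) (h1 : x ≤ 1) : evalIL lnl3 x 0 ≤ 0 :=
  uni_le 9 65536 lnl3 (by norm_num) (by norm_num) (by decide +kernel)
    (chkOut_sound (uniPb 9 65536 lnl3) tnl3 0 32768 0 32768 (by decide +kernel)) x h0 h1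

theorem apx3 (u : ℝ) (h0 : -(37611 / 100000 : ℝ) ≤ u) (h1 : u ≤ 2 * (37611 / 100000 : ℝ)) :
    |((1 + u)⁻¹) ^ 3 - evalZ Ax.p3 (3 * u) / Ax.D3| ≤ Ax.e3 * |u| ^ Ax.m3 := by
  have hu : 0 < 1 + u := by norm_num at h0 ⊢; linarith
  refine apx_of_S 3 2 _ (S3 u) _ u hu ?_ ?_ ?_
  · simp only [Ax, evalZ_cons, evalZ_nil, S3]
    push_cast
    ring
  · rcases le_total 0 u with hs | hs
    · have hx := hpu3 (u / (2 * (37611 / 100000 : ℝ))) (by positivity) (by rw [div_le_one (by norm_num)]; exact h1)
      have e : evalIL lpu3 (u / (2 * (37611 / 100000 : ℝ))) 0 = 32768000000000000000000000000000000000000000000000 * (S3 u - Ax.e3 * (1 + u) ^ 3) := by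
        simp only [lpu3, evalIL, List.map_cons, List.map_nil, List.sum_cons, List.sum_nil, S3, Ax]
        push_cast
        ring
      rw [e] at hx
      have := cmul_nonpos (by norm_num) hx
      simp only [Ax] at this ⊢
      linarith
    · have hx := hnu3 (-u / (37611 / 100000 : ℝ)) (by apply div_nonneg <;> [linarith; norm_num]) (by rw [div_le_one (by norm_num)]; linarith)
      have e : evalIL lnu3 (-u / (37611 / 100000 : ℝ)) 0 = 16777216000000000000000000000000000000000000000000000 * (S3 u - Ax.e3 * (1 + u) ^ 3) := by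
        simp only [lnu3, evalIL, List.map_cons, List.map_nil, List.sum_cons, List.sum_nil, S3, Ax]
        push_cast
        ring
      rw [e] at hx
      have := cmul_nonpos (by norm_num) hx
      simp only [Ax] at this ⊢
      linarith
  · rcases le_total 0 u with hs | hs
    · have hx := hpl3 (u / (2 * (37611 / 100000 : ℝ))) (by positivity) (by rw [div_le_one (by norm_num)]; exact h1)
      have e : evalIL lpl3 (u / (2 * (37611 / 100000 : ℝ))) 0 = 32768000000000000000000000000000000000000000000000 * (-S3 u - Ax.e3 * (1 + u) ^ 3) := by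
        simp only [lpl3, evalIL, List.map_cons, List.map_nil, List.sum_cons, List.sum_nil, S3, Ax]
        push_cast
        ring
      rw [e] at hx
      have := cmul_nonpos (by norm_num) hx
      simp only [Ax] at this ⊢
      linarith
    · have hx := hnl3 (-u / (37611 / 100000 : ℝ)) (by apply div_nonneg <;> [linarith; norm_num]) (by rw [div_le_one (by norm_num)]; linarith)
      have e : evalIL lnl3 (-u / (37611 / 100000 : ℝ)) 0 = 16777216000000000000000000000000000000000000000000000 * (-S3 u - Ax.e3 * (1 + u) ^ 3) := by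
        simp only [lnl3, evalIL, List.map_cons, List.map_nil, List.sum_cons, List.sum_nil, S3, Ax]
        push_cast
        ring
      rw [e] at hx
      have := cmul_nonpos (by norm_num) hx
      simp only [Ax] at this ⊢
      linarith

/-- The quotient polynomial for `j = 4`. -/
noncomputable def S4 (u : ℝ) : ℝ :=
  (156671 / 8388608 : ℝ) * u ^ 0 + (8972601 / 8388608 : ℝ) * u ^ 1 + (41192955 / 16777216 : ℝ) * u ^ 2 + (-10315483 / 524288 : ℝ) * u ^ 3 + (-190231365 / 4194304 : ℝ) * u ^ 4 + (623720129 / 8388608 : ℝ) * u ^ 5 + (2765723031 / 16777216 : ℝ) * u ^ 6 + (-68585203 / 2097152 : ℝ) * u ^ 7 + (-728218817 / 4194304 : ℝ) * u ^ 8 + (-309100641 / 4194304 : ℝ) * u ^ 9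

/-- Certificate polynomial. -/
def lpu4 : List ITm := [⟨(-598897186279296875000000000000000000000000000000),0,0⟩,⟨4328816099128417968750000000000000000000000000000,1,0⟩,⟨8828366081736558471679687500000000000000000000000,2,0⟩,⟨(-69883301480991215512333007812500000000000000000000),3,0⟩,⟨(-119198190069738215221440333471679687500000000000000),4,0⟩,⟨146694619383740614773347520086184375000000000000000,5,0⟩,⟨244651561149926717127741581394624843468750000000000,6,0⟩,⟨(-36509391683072863392208305261860147081565000000000),7,0⟩,⟨(-145797791612528854644542629867788811940804468850000),8,0⟩,⟨(-46551516227211268830469634391426388863061438316331),9,0⟩]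

/-- Certificate tree. -/
def tpu4 : OutT := (A (A (A (A (O l) (O l)) (A (A (O l) (A (O l) (O l))) (A (O l) (O l)))) (A (A (O l) (O l)) (A (O l) (O l)))) (A (A (A (O l) (O l)) (A (O l) (O l))) (A (A (A (O l) (O l)) (A (A (O l) (O l)) (A (A (O l) (O l)) (A (O l) (O l))))) (A (A (A (A (O l) (A (O l) (O l))) (A (O l) (O l))) (A (A (O l) (O l)) (O l))) (A (A (O l) (O l)) (O l))))))

theorem hpu4 (x : ℝ) (h0 : 0 ≤ x) (h1 : x ≤ 1) : evalIL lpu4 x 0 ≤ 0 :=
  uni_le 9 65536 lpu4 (by norm_num) (by norm_num) (by decide +kernel)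
    (chkOut_sound (uniPb 9 65536 lpu4) tpu4 0 32768 0 32768 (by decide +kernel)) x h0 h1

/-- Certificate polynomial. -/
def lpl4 : List ITm := [⟨(-904895233154296875000000000000000000000000000000),0,0⟩,⟨(-8853547034113769531250000000000000000000000000000),1,0⟩,⟨(-13933755737608580200195312500000000000000000000000),2,0⟩,⟨67323050676364514055916992187500000000000000000000,3,0⟩,⟨118716722104674140879054019653320312500000000000000,4,0⟩,⟨(-146694619383740614773347520086184375000000000000000),5,0⟩,⟨(-244651561149926717127741581394624843468750000000000),6,0⟩,⟨36509391683072863392208305261860147081565000000000,7,0⟩,⟨145797791612528854644542629867788811940804468850000,8,0⟩,⟨46551516227211268830469634391426388863061438316331,9,0⟩]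

/-- Certificate tree. -/
def tpl4 : OutT := (A (A (A (O l) (O l)) (A (O l) (A (O l) (A (O l) (O l))))) (A (A (A (A (A (O l) (O l)) (A (O l) (A (O l) (O l)))) (A (A (A (O l) (O l)) (A (O l) (O l))) (A (O l) (O l)))) (A (A (A (O l) (O l)) (O l)) (A (O l) (O l)))) (A (A (O l) (O l)) (A (O l) (A (O l) (A (O l) (A (O l) (A (O l) (O l)))))))))

theorem hpl4 (x : ℝ) (h0 : 0 ≤ x) (h1 : x ≤ 1) : evalIL lpl4 x 0 ≤ 0 :=
  uni_le 9 65536 lpl4 (by norm_num) (by norm_num) (by decide +kernel)
    (chkOut_sound (uniPb 9 65536 lpl4) tpl4 0 32768 0 32768 (by decide +kernel)) x h0 h1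

/-- Certificate polynomial. -/
def lnu4 : List ITm := [⟨(-306635359375000000000000000000000000000000000000000),0,0⟩,⟨(-1108176921376875000000000000000000000000000000000000),1,0⟩,⟨1130030858462279484375000000000000000000000000000000,2,0⟩,⟨4472531294783437792789312500000000000000000000000000,3,0⟩,⟨(-3814342082231622887086090671093750000000000000000000),4,0⟩,⟨(-2347113910139849836373560321378950000000000000000000),5,0⟩,⟨1957212489199413737021932651156998747750000000000000,6,0⟩,⟨146037566732291453568833221047440588326260000000000,7,0⟩,⟨(-291595583225057709289085259735577623881608937700000),8,0⟩,⟨46551516227211268830469634391426388863061438316331,9,0⟩]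

/-- Certificate tree. -/
def tnu4 : OutT := (A (A (O l) (O l)) (A (A (O l) (A (O l) (A (O l) (O l)))) (A (A (A (O l) (A (O l) (O l))) (A (A (A (O l) (O l)) (A (O l) (O l))) (A (A (O l) (O l)) (A (O l) (O l))))) (A (A (A (O l) (O l)) (A (O l) (O l))) (A (O l) (O l))))))

theorem hnu4 (x : ℝ) (h0 : 0 ≤ x) (h1 : x ≤ 1) : evalIL lnu4 x 0 ≤ 0 :=
  uni_le 9 65536 lnu4 (by norm_num) (by norm_num) (by decide +kernel)
    (chkOut_sound (uniPb 9 65536 lnu4) tnu4 0 32768 0 32768 (by decide +kernel)) x h0 h1

/-- Certificate polynomial. -/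
def lnl4 : List ITm := [⟨(-463306359375000000000000000000000000000000000000000),0,0⟩,⟨2266508040733125000000000000000000000000000000000000,1,0⟩,⟨(-1783520734413898265625000000000000000000000000000000),2,0⟩,⟨(-4308675243287328899578687500000000000000000000000000),3,0⟩,⟨3798935107349572508129728628906250000000000000000000,4,0⟩,⟨2347113910139849836373560321378950000000000000000000,5,0⟩,⟨(-1957212489199413737021932651156998747750000000000000),6,0⟩,⟨(-146037566732291453568833221047440588326260000000000),7,0⟩,⟨291595583225057709289085259735577623881608937700000,8,0⟩,⟨(-46551516227211268830469634391426388863061438316331),9,0⟩]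

/-- Certificate tree. -/
def tnl4 : OutT := (A (A (A (O l) (O l)) (A (A (O l) (A (O l) (O l))) (A (A (O l) (O l)) (A (O l) (O l))))) (A (A (A (O l) (O l)) (A (O l) (O l))) (A (A (O l) (O l)) (A (O l) (A (O l) (A (O l) (A (O l) (A (O l) (O l)))))))))

theorem hnl4 (x : ℝ) (h0 : 0 ≤ x) (h1 : x ≤ 1) : evalIL lnl4 x 0 ≤ 0 :=
  uni_le 9 65536 lnl4 (by norm_num) (by norm_num) (by decide +kernel)
    (chkOut_sound (uniPb 9 65536 lnl4) tnl4 0 32768 0 32768 (by decide +kernel)) x h0 h1

theorem apx4 (u : ℝ) (h0 : -(37611 / 100000 : ℝ) ≤ u) (h1 : u ≤ 2 * (37611 / 100000 : ℝ)) :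
    |((1 + u)⁻¹) ^ 4 - evalZ Ax.p4 (3 * u) / Ax.D4| ≤ Ax.e4 * |u| ^ Ax.m4 := by
  have hu : 0 < 1 + u := by norm_num at h0 ⊢; linarith
  refine apx_of_S 4 2 _ (S4 u) _ u hu ?_ ?_ ?_
  · simp only [Ax, evalZ_cons, evalZ_nil, S4]
    push_cast
    ring
  · rcases le_total 0 u with hs | hs
    · have hx := hpu4 (u / (2 * (37611 / 100000 : ℝ))) (by positivity) (by rw [div_le_one (by norm_num)]; exact h1)
      have e : evalIL lpu4 (u / (2 * (37611 / 100000 : ℝ))) 0 = 8192000000000000000000000000000000000000000000000 * (S4 u - Ax.e4 * (1 + u) ^ 4) := by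
        simp only [lpu4, evalIL, List.map_cons, List.map_nil, List.sum_cons, List.sum_nil, S4, Ax]
        push_cast
        ring
      rw [e] at hx
      have := cmul_nonpos (by norm_num) hx
      simp only [Ax] at this ⊢
      linarith
    · have hx := hnu4 (-u / (37611 / 100000 : ℝ)) (by apply div_nonneg <;> [linarith; norm_num]) (by rw [div_le_one (by norm_num)]; linarith)
      have e : evalIL lnu4 (-u / (37611 / 100000 : ℝ)) 0 = 4194304000000000000000000000000000000000000000000000 * (S4 u - Ax.e4 * (1 + u) ^ 4) := by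
        simp only [lnu4, evalIL, List.map_cons, List.map_nil, List.sum_cons, List.sum_nil, S4, Ax]
        push_cast
        ring
      rw [e] at hx
      have := cmul_nonpos (by norm_num) hx
      simp only [Ax] at this ⊢
      linarith
  · rcases le_total 0 u with hs | hs
    · have hx := hpl4 (u / (2 * (37611 / 100000 : ℝ))) (by positivity) (by rw [div_le_one (by norm_num)]; exact h1)
      have e : evalIL lpl4 (u / (2 * (37611 / 100000 : ℝ))) 0 = 8192000000000000000000000000000000000000000000000 * (-S4 u - Ax.e4 * (1 + u) ^ 4) := by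
        simp only [lpl4, evalIL, List.map_cons, List.map_nil, List.sum_cons, List.sum_nil, S4, Ax]
        push_cast
        ring
      rw [e] at hx
      have := cmul_nonpos (by norm_num) hx
      simp only [Ax] at this ⊢
      linarith
    · have hx := hnl4 (-u / (37611 / 100000 : ℝ)) (by apply div_nonneg <;> [linarith; norm_num]) (by rw [div_le_one (by norm_num)]; linarith)
      have e : evalIL lnl4 (-u / (37611 / 100000 : ℝ)) 0 = 4194304000000000000000000000000000000000000000000000 * (-S4 u - Ax.e4 * (1 + u) ^ 4) := by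
        simp only [lnl4, evalIL, List.map_cons, List.map_nil, List.sum_cons, List.sum_nil, S4, Ax]
        push_cast
        ring
      rw [e] at hx
      have := cmul_nonpos (by norm_num) hx
      simp only [Ax] at this ⊢
      linarith

/-- The quotient polynomial for `j = 5`. -/
noncomputable def S5 (u : ℝ) : ℝ :=
  (1219929 / 16777216 : ℝ) * u ^ 0 + (28588553 / 8388608 : ℝ) * u ^ 1 + (83446593 / 8388608 : ℝ) * u ^ 2 + (-942482641 / 16777216 : ℝ) * u ^ 3 + (-405613907 / 2097152 : ℝ) * u ^ 4 + (1891798827 / 16777216 : ℝ) * u ^ 5 + (6053327933 / 8388608 : ℝ) * u ^ 6 + (5977823021 / 16777216 : ℝ) * u ^ 7 + (-10683770937 / 16777216 : ℝ) * u ^ 8 + (-12171393241 / 16777216 : ℝ) * u ^ 9 + (-887485233 / 4194304 : ℝ) * u ^ 10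

/-- Certificate polynomial. -/
def lpu5 : List ITm := [⟨(-87070986938476562500000000000000000000000000000000000),0,0⟩,⟨610541913404113769531250000000000000000000000000000000,1,0⟩,⟨1644314364470714743652343750000000000000000000000000000,2,0⟩,⟨(-10291098226269214530400341796875000000000000000000000000),3,0⟩,⟨(-25551336676438831083943875895019531250000000000000000000),4,0⟩,⟨11095303936953457597633333899755009765625000000000000000,5,0⟩,⟨53546798155903594443920572170325744415625000000000000000,6,0⟩,⟨19888280611141708183608766093991059240087218750000000000,7,0⟩,⟨(-26737674383466222322384420317702224753602551935625000000),8,0⟩,⟨(-22913120146448558227116879502344201615425623821786637500),9,0⟩,⟨(-5027012224445340977737007894258055280986933608513145033),10,0⟩]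

/-- Certificate tree. -/
def tpu5 : OutT := (A (A (A (A (O l) (O l)) (A (A (O l) (A (O l) (O l))) (A (O l) (O l)))) (A (A (O l) (O l)) (A (O l) (O l)))) (A (A (O l) (A (O l) (O l))) (A (A (A (O l) (O l)) (A (A (O l) (O l)) (A (A (O l) (O l)) (A (O l) (O l))))) (A (A (A (A (O l) (O l)) (A (O l) (O l))) (A (A (O l) (O l)) (O l))) (A (A (O l) (O l)) (O l))))))

theorem hpu5 (x : ℝ) (h0 : 0 ≤ x) (h1 : x ≤ 1) : evalIL lpu5 x 0 ≤ 0 :=
  uni_le 10 65536 lpu5 (by norm_num) (by norm_num) (by decide +kernel)
    (chkOut_sound (uniPb 10 65536 lpu5) tpu5 0 32768 0 32768 (by decide +kernel)) x h0 h1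

/-- Certificate polynomial. -/
def lpl5 : List ITm := [⟨(-146637832641601562500000000000000000000000000000000000),0,0⟩,⟨(-1489544154726745605468750000000000000000000000000000000),1,0⟩,⟨(-2966720496406134982910156250000000000000000000000000000),2,0⟩,⟨9296357885704752718025830078125000000000000000000000000,3,0⟩,⟨25177204886949131351691698292480468750000000000000000000,4,0⟩,⟨(-11151589819891445984152280506991396484375000000000000000),5,0⟩,⟨(-53546798155903594443920572170325744415625000000000000000),6,0⟩,⟨(-19888280611141708183608766093991059240087218750000000000),7,0⟩,⟨26737674383466222322384420317702224753602551935625000000,8,0⟩,⟨22913120146448558227116879502344201615425623821786637500,9,0⟩,⟨5027012224445340977737007894258055280986933608513145033,10,0⟩]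

/-- Certificate tree. -/
def tpl5 : OutT := (A (A (A (O l) (O l)) (A (O l) (A (O l) (A (O l) (O l))))) (A (A (A (A (A (O l) (O l)) (A (O l) (A (O l) (O l)))) (A (A (A (O l) (O l)) (O l)) (A (O l) (O l)))) (A (A (O l) (O l)) (A (O l) (O l)))) (A (A (O l) (O l)) (A (O l) (A (O l) (A (O l) (A (O l) (A (O l) (O l)))))))))

theorem hpl5 (x : ℝ) (h0 : 0 ≤ x) (h1 : x ≤ 1) : evalIL lpl5 x 0 ≤ 0 :=
  uni_le 10 65536 lpl5 (by norm_num) (by norm_num) (by decide +kernel)
    (chkOut_sound (uniPb 10 65536 lpl5) tpl5 0 32768 0 32768 (by decide +kernel)) x h0 h1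

/-- Certificate polynomial. -/
def lnu5 : List ITm := [⟨(-89160690625000000000000000000000000000000000000000000000),0,0⟩,⟨(-312597459662906250000000000000000000000000000000000000000),1,0⟩,⟨420944477304502974375000000000000000000000000000000000000,2,0⟩,⟨1317260572962459459891243750000000000000000000000000000000,3,0⟩,⟨(-1635285547292085189372408057281250000000000000000000000000),4,0⟩,⟨(-355049725982510643124266684792160312500000000000000000000),5,0⟩,⟨856748770494457511102729154725211910650000000000000000000,6,0⟩,⟨(-159106244889133665468870128751928473920697750000000000000),7,0⟩,⟨(-106950697533864889289537681270808899014410207742500000000),8,0⟩,⟨45826240292897116454233759004688403230851247643573275000,9,0⟩,⟨(-5027012224445340977737007894258055280986933608513145033),10,0⟩]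

/-- Certificate tree. -/
def tnu5 : OutT := (A (A (O l) (O l)) (A (A (O l) (A (O l) (A (O l) (O l)))) (A (A (A (O l) (A (O l) (O l))) (A (A (A (O l) (O l)) (A (O l) (O l))) (A (A (A (O l) (O l)) (A (O l) (O l))) (A (O l) (O l))))) (A (A (A (A (O l) (O l)) (O l)) (A (O l) (O l))) (A (A (O l) (O l)) (O l))))))

theorem hnu5 (x : ℝ) (h0 : 0 ≤ x) (h1 : x ≤ 1) : evalIL lnu5 x 0 ≤ 0 :=
  uni_le 10 65536 lnu5 (by norm_num) (by norm_num) (by decide +kernel)
    (chkOut_sound (uniPb 10 65536 lnu5) tnu5 0 32768 0 32768 (by decide +kernel)) x h0 h1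

/-- Certificate polynomial. -/
def lnl5 : List ITm := [⟨(-150157140625000000000000000000000000000000000000000000000),0,0⟩,⟨762646607220093750000000000000000000000000000000000000000,1,0⟩,⟨(-759480447079970555625000000000000000000000000000000000000),2,0⟩,⟨(-1189933809370208347907306250000000000000000000000000000000),3,0⟩,⟨1611341112764744406508268690718750000000000000000000000000,4,0⟩,⟨356850874236526271492872976223724687500000000000000000000,5,0⟩,⟨(-856748770494457511102729154725211910650000000000000000000),6,0⟩,⟨159106244889133665468870128751928473920697750000000000000,7,0⟩,⟨106950697533864889289537681270808899014410207742500000000,8,0⟩,⟨(-45826240292897116454233759004688403230851247643573275000),9,0⟩,⟨5027012224445340977737007894258055280986933608513145033,10,0⟩]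

/-- Certificate tree. -/
def tnl5 : OutT := (A (A (A (O l) (O l)) (A (A (O l) (A (O l) (O l))) (A (A (A (O l) (O l)) (A (O l) (O l))) (A (O l) (O l))))) (A (A (A (A (O l) (O l)) (O l)) (A (O l) (O l))) (A (A (O l) (O l)) (A (A (O l) (O l)) (A (O l) (A (O l) (A (O l) (A (O l) (O l)))))))))

theorem hnl5 (x : ℝ) (h0 : 0 ≤ x) (h1 : x ≤ 1) : evalIL lnl5 x 0 ≤ 0 :=
  uni_le 10 65536 lnl5 (by norm_num) (by norm_num) (by decide +kernel)
    (chkOut_sound (uniPb 10 65536 lnl5) tnl5 0 32768 0 32768 (by decide +kernel)) x h0 h1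

theorem apx5 (u : ℝ) (h0 : -(37611 / 100000 : ℝ) ≤ u) (h1 : u ≤ 2 * (37611 / 100000 : ℝ)) :
    |((1 + u)⁻¹) ^ 5 - evalZ Ax.p5 (3 * u) / Ax.D5| ≤ Ax.e5 * |u| ^ Ax.m5 := by
  have hu : 0 < 1 + u := by norm_num at h0 ⊢; linarith
  refine apx_of_S 5 2 _ (S5 u) _ u hu ?_ ?_ ?_
  · simp only [Ax, evalZ_cons, evalZ_nil, S5]
    push_cast
    ring
  · rcases le_total 0 u with hs | hs
    · have hx := hpu5 (u / (2 * (37611 / 100000 : ℝ))) (by positivity) (by rw [div_le_one (by norm_num)]; exact h1)
      have e : evalIL lpu5 (u / (2 * (37611 / 100000 : ℝ))) 0 = 409600000000000000000000000000000000000000000000000000 * (S5 u - Ax.e5 * (1 + u) ^ 5) := by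
        simp only [lpu5, evalIL, List.map_cons, List.map_nil, List.sum_cons, List.sum_nil, S5, Ax]
        push_cast
        ring
      rw [e] at hx
      have := cmul_nonpos (by norm_num) hx
      simp only [Ax] at this ⊢
      linarith
    · have hx := hnu5 (-u / (37611 / 100000 : ℝ)) (by apply div_nonneg <;> [linarith; norm_num]) (by rw [div_le_one (by norm_num)]; linarith)
      have e : evalIL lnu5 (-u / (37611 / 100000 : ℝ)) 0 = 419430400000000000000000000000000000000000000000000000000 * (S5 u - Ax.e5 * (1 + u) ^ 5) := by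
        simp only [lnu5, evalIL, List.map_cons, List.map_nil, List.sum_cons, List.sum_nil, S5, Ax]
        push_cast
        ring
      rw [e] at hx
      have := cmul_nonpos (by norm_num) hx
      simp only [Ax] at this ⊢
      linarith
  · rcases le_total 0 u with hs | hs
    · have hx := hpl5 (u / (2 * (37611 / 100000 : ℝ))) (by positivity) (by rw [div_le_one (by norm_num)]; exact h1)
      have e : evalIL lpl5 (u / (2 * (37611 / 100000 : ℝ))) 0 = 409600000000000000000000000000000000000000000000000000 * (-S5 u - Ax.e5 * (1 + u) ^ 5) := by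
        simp only [lpl5, evalIL, List.map_cons, List.map_nil, List.sum_cons, List.sum_nil, S5, Ax]
        push_cast
        ring
      rw [e] at hx
      have := cmul_nonpos (by norm_num) hx
      simp only [Ax] at this ⊢
      linarith
    · have hx := hnl5 (-u / (37611 / 100000 : ℝ)) (by apply div_nonneg <;> [linarith; norm_num]) (by rw [div_le_one (by norm_num)]; linarith)
      have e : evalIL lnl5 (-u / (37611 / 100000 : ℝ)) 0 = 419430400000000000000000000000000000000000000000000000000 * (-S5 u - Ax.e5 * (1 + u) ^ 5) := by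
        simp only [lnl5, evalIL, List.map_cons, List.map_nil, List.sum_cons, List.sum_nil, S5, Ax]
        push_cast
        ring
      rw [e] at hx
      have := cmul_nonpos (by norm_num) hx
      simp only [Ax] at this ⊢
      linarith

theorem hAx : Ax.OK (-(37611 / 100000 : ℝ)) (2 * (37611 / 100000 : ℝ)) where
  e10 := by simp only [Ax]; norm_num
  e20 := by simp only [Ax]; norm_num
  e30 := by simp only [Ax]; norm_num
  e40 := by simp only [Ax]; norm_num
  e50 := by simp only [Ax]; norm_num
  h1 := fun u a b => by simpa using apx1 u a b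
  h2 := apx2
  h3 := apx3
  h4 := apx4
  h5 := apx5

end Vale.Agent.P154.D7.K0
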