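import Vale.Agent.P154.D7.K0.Data
import Vale.Agent.P154.Check2

namespace Vale.Agent.P154.D7.K0

open Cert

/-- Chart (0, 0). -/
def P00 : Pb := chartPb false false Nd w G []

/-- Chart (0, 1). -/
def P01 : Pb := chartPb false true Nd w G []

/-- Chart (1, 0). -/
def P10 : Pb := chartPb true false Nd w G []

/-- Chart (1, 1). -/
def P11 : Pb := chartPb true true Nd w G []

/-- The offset. -/
def KK : ℕ := 79833612381388792466254908521473542642698050417418301660101889697488475674758562631398318619705428043573697873767699809758897519535743746429566871931393256812800226918043427060701508857774519487306134269781756959733232418204834815555554210737921766300284836275030241665694339809213760397115392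

end Vale.Agent.P154.D7.K0
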