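import Vale.Agent.P154.D7.K0.Charts

set_option maxRecDepth 100000

namespace Vale.Agent.P154.D7.K0

open Cert InT OutT

/-- Certificate tree. -/
def tr00_r100 : OutT :=
(A (B (A (B (A (O (c (c (c l l) (c l l)) (c (c l (c l l)) (d (c k k) (c l (d (d k l) l)))))) (O (c (c l (c l l)) (c (c l (d l l)) (d (c k k) (c (d l l) (d (c k k) (c l l)))))))) (A (O (c (c (c l l) (c l l)) (c (c l (c l l)) (d (c k k) (c l (d (d k l) l)))))) (O (c (c (c l l) (c l l)) (c (c l (c l l)) (d (c k k) (c (c l l) (d (c k k) (c l l))))))))) (B (A (O (c (c l (c l l)) (c (c (d l l) (d (d l l) (c l l))) (d (c k k) (c (d (d (c k k) l) l) (d (c k k) (d (c l (d k (d (c k k) l))) (c l l)))))))) (B s (A s s))) (A (O (c (c (c l l) (c l l)) (c (c (c l l) (d l l)) (d (c k k) (c (d (c l l) l) (d (c k k) (d (d (c l k) l) l))))))) (B (O (c (c l (c l (c l l))) (c (c (d (c l l) l) (d (d (c k k) (d (c l k) l)) (d l l))) (d (c k k) (c (d (c (d k l) (d k (d k l))) (c l l)) (d (c k k) (d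 (c (d (c k k) l) (d k (c k k))) (c l (d (d (c l k) l) l))))))))) (O (c (c l (c l (c l l))) (c (c (d l l) (d (d (c k k) l) (c l l))) (d (c k k) (c (d (c l (d k (d k l))) (c l l)) (d (c k k) (d (c (d (d k l) l) (d k (c k k))) (c l (d (d (c l k) l) l))))))))))))) (A (B (A (O (c (c (c l l) (c l l)) (c (c l l) (d (c k k) (c l (d l l)))))) (O (c (c (c l l) (c l l)) (c (c l (c l l)) (d (c k k) (c l (d (d k l) l))))))) (A (O (c (c (c l l) (c l l)) (c (c l l) (d (d k (c k k)) (c l (d l l)))))) (O (c (c (c l l) (c l l)) (c (c l l) (d (c k k) (c l (d (d k l) l)))))))) (B (A (O (c (c (c l l) (c l l)) (c (c l (d l l)) (d (c k k) (c (d l l) (d (c k k) (d (d (c l k) l) l))))))) (B (O (c (c l (c l l)) (c (c (c l l) (d l l)) (d (c k k) (c (d (d (d (c k k) l) l) l) (d (c k k) (d (c l (d k (c k k))) (c l l)))))))) (O (c (c (c l l) (c l l)) (c (c (c l l) (d l l)) (d (c k k) (c (d (c l l) l) (d (c k k) (d (c l (d k (d (c k k) l))) (c l l)))))))))) (A (O (c (c (c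 l l) (c l l)) (c (c l (c l l)) (d (c k k) (c (c l l) (d (c k k) (d l l))))))) (B (O (c (c (c l l) (c l l)) (c (c l (d l l)) (d (c k k) (c (d l l) (d (c k k) (d (d (c l k) (c l l)) l))))))) (O (c (c (c l l) (c l l)) (c (c l (c l l)) (d (c k k) (c (c l l) (d (c k k) (d (d (c l k) l) l)))))))))))) (B (A s s) (A (B (A (B (A s s) (A (O (c (c l (c l l)) (c (c (c l l) (d l l)) (d (c k k) (c (d (d (c k k) l) l) (d (c k k) (d (c l (d k (d (c k k) l))) l))))))) s)) s) (A (B (A (O (c (c l (c l l)) (c (c l (d l l)) (d (c k k) (c (d l l) (d (c k k) (d (c l (d k l)) l))))))) (O (c (c l (c l l)) (c (c (c l l) (d l l)) (d (c k k) (c (d (d (c k k) l) l) (d (c k k) (d (c l (d k (c k k))) (c l l))))))))) (A (O (c (c (c l l) (c l l)) (c (c l (c l l)) (d (c k k) (c l (d (c k k) (d l l))))))) (O (c (c l (c l l)) (c (c l (d l l)) (d (c k k) (c (d l l) (d (c k k) (d (c l (d k l)) l))))))))) (B s (A (O (c (c l (c l l)) (c (c (c l l) (d l l)) (d (c k k) (c (d (d (c k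 k) l) l) (d (c k k) (d (c (d (d k l) l) (c k k)) (c l (d (d (c l k) l) l))))))))) s)))) (B s (A s s)))))

theorem s00_r100 : Sound P00 32768 8192 0 16384 :=
  chkOut2_sound P00 KK tr00_r100 32768 8192 0 16384 (by decide +kernel)

end Vale.Agent.P154.D7.K0
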